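import Crest.Agent.Helper68.SW3.Fibre
import Crest.Agent.Helper78.S0453.Fibre3
import Crest.Agent.Helper56.SW.Tables

/-!
# S0453 / D3 (helper59): surjectivity of the fibre → table map

The rewired graph `ofTable t G₀ x` (helper68) of a table `x` with the margins of the table of `G₀`
is a realization of `d` in the `~_T`-fibre of `G₀`, and its table is `x`.
No new degree computation: helper78's counting lemmas (`card_rowT_add`, `col_t0`,
`col_of_not_mem`, `card_nb_split`) are applied to the rewired graph itself, which is a realization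
of its own degree vector.

* `ofTable_mem` : membership in the fibre and `rowT t (ofTable t G₀ x) = x`;
* `image_rowT_cls` : the image of the fibre `cls d (TT t) G₀` under `rowT t` is exactly the set of
  tables with the margins of `rowT t G₀`.
-/

set_option autoImplicit false

namespace Crest.Agent.Helper59.SW

open Finset Crest.SwitchChain Crest.Agent.Helper65.Switch

open Crest.Agent.Helper68.SW3 (Tset row ofTable row_ofTable offU_ofTable)
open Crest.Agent.Helper78.S0453 (TT rowT mem_TT t_mem_TT col_tj col_t0 col_of_not_mem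
  card_nb_split card_nb_of_mem card_rowT_add ie margins_eq fibre_inj)

variable {n : ℕ}

lemma Tset_eq_TT (t : Fin 3 → Fin n) : Tset t = TT t := rfl

lemma row_eq_rowT (t : Fin 3 → Fin n) (G : Finset (Edge n)) (i : Fin 3) :
    row t G i = rowT t G i := rfl

/-- A table with the column sums of the table of a graph has its entries off the triple or at the
virtual column. -/
lemma entries_of_cols {t : Fin 3 → Fin n} (ht : Function.Injective t) (G₀ : Finset (Edge n))
    (x : Fin 3 → Finset (Fin n))
    (hc : ∀ w, (univ.filter fun i => w ∈ x i).card = (univ.filter fun i => w ∈ rowT t G₀ i).card)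
    (i : Fin 3) (w : Fin n) (hw : w ∈ x i) : w ∉ Tset t ∨ w = t 0 := by
  by_cases hT : w ∈ TT t
  · right
    obtain ⟨j, rfl⟩ := (mem_TT t).1 hT
    by_cases hj : j = 0
    · rw [hj]
    · exfalso
      have h0 := hc (t j)
      rw [col_tj ht G₀ hj, Finset.card_eq_zero, Finset.filter_eq_empty_iff] at h0
      exact h0 (Finset.mem_univ i) hw
  · left
    exact hT

/-- **Surjectivity**: a table with the margins of the table of `G₀` is the table of a graph in the
`~_T`-fibre of `G₀`. -/
theorem ofTable_mem {t : Fin 3 → Fin n} (ht : Function.Injective t) {d : Fin n → ℕ}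
    {G₀ : Finset (Edge n)} (hG₀ : G₀ ∈ realizations d) (x : Fin 3 → Finset (Fin n))
    (hr : ∀ i, (x i).card = (rowT t G₀ i).card)
    (hc : ∀ w, (univ.filter fun i => w ∈ x i).card =
      (univ.filter fun i => w ∈ rowT t G₀ i).card) :
    ofTable t G₀ x ∈ cls d (TT t) G₀ ∧ rowT t (ofTable t G₀ x) = x := by
  classical
  set H : Finset (Edge n) := ofTable t G₀ x with hH
  have hrow : ∀ i, rowT t H i = x i := fun i =>
    row_ofTable ht G₀ (entries_of_cols ht G₀ x hc) i
  have hoff : offU (TT t) H = offU (TT t) G₀ := offU_ofTable t G₀ x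
  have hH' : H ∈ realizations (fun v => deg H v) := mem_realizations.2 fun _ => rfl
  -- the number of internal edges
  have hE : ∑ j, ie t H j = ∑ j, ie t G₀ j := by
    have h1 := col_t0 (t := t) H
    have h2 := col_t0 (t := t) G₀
    have h3 := hc (t 0)
    have h4 : (univ.filter fun i => t 0 ∈ rowT t H i) = univ.filter fun i => t 0 ∈ x i := by
      ext i
      simp only [Finset.mem_filter, Finset.mem_univ, true_and, hrow i]
    rw [h4] at h1
    omega
  have hdeg : ∀ v, deg H v = d v := by
    intro v
    by_cases hv : v ∈ TT t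
    · obtain ⟨i, rfl⟩ := (mem_TT t).1 hv
      have h1 := card_rowT_add ht hH' i
      have h2 := card_rowT_add ht hG₀ i
      have h3 := hr i
      rw [hrow i] at h1
      omega
    · have h1 := card_nb_of_mem hH' v
      have h1' := card_nb_of_mem hG₀ v
      have h2 := card_nb_split ht H v
      have h2' := card_nb_split ht G₀ v
      have h3 := col_of_not_mem (t := t) (G := H) hv
      have h3' := col_of_not_mem (t := t) (G := G₀) hv
      have h4 := hc v
      have h5 : (univ.filter fun i => v ∈ rowT t H i) = univ.filter fun i => v ∈ x i := by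
        ext i
        simp only [Finset.mem_filter, Finset.mem_univ, true_and, hrow i]
      rw [h5] at h3
      have h6 : nb H v \ TT t = nb G₀ v \ TT t := by
        have h := offU_eq_iff.1 hoff
        ext u
        simp only [mem_sdiff, mem_nb]
        constructor
        · rintro ⟨a1, a2⟩; exact ⟨(h v u hv a2).1 a1, a2⟩
        · rintro ⟨a1, a2⟩; exact ⟨(h v u hv a2).2 a1, a2⟩
      rw [h6] at h2
      omega
  exact ⟨mem_cls.2 ⟨mem_realizations.2 hdeg, hoff⟩, funext hrow⟩

/-- Membership in helper56's `Tab r c`. -/
lemma mem_Tab56 {C : Type*} [Fintype C] [DecidableEq C] {r : Fin 3 → ℕ} {c : C → ℕ}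
    {x : Fin 3 → Finset C} :
    x ∈ Crest.Agent.Helper56.SW.Tab r c ↔
      (∀ i, (x i).card = r i) ∧ ∀ w, (univ.filter (fun i => w ∈ x i)).card = c w := by
  unfold Crest.Agent.Helper56.SW.Tab
  simp only [Finset.mem_filter, Finset.mem_univ, true_and]

/-- **Injectivity** of the table map on a `~_T`-fibre (helper78's `fibre_inj`). -/
theorem injOn_rowT_cls {t : Fin 3 → Fin n} {d : Fin n → ℕ} (G₀ : Finset (Edge n)) :
    Set.InjOn (rowT t) (cls d (TT t) G₀ : Set (Finset (Edge n))) := by
  intro G hG G' hG' h
  rw [Finset.mem_coe, mem_cls] at hG hG'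
  exact fibre_inj (hG.2.trans hG'.2.symm) h

/-- The image of the `~_T`-fibre of `G₀` under the table map is exactly the set of tables with
the margins of the table of `G₀` (helper56's `Tab r c`: rows first). -/
theorem image_rowT_cls {t : Fin 3 → Fin n} (ht : Function.Injective t) {d : Fin n → ℕ}
    {G₀ : Finset (Edge n)} (hG₀ : G₀ ∈ realizations d) :
    (cls d (TT t) G₀).image (rowT t) =
      Crest.Agent.Helper56.SW.Tab (fun i => (rowT t G₀ i).card)
        (fun w => (univ.filter fun i => w ∈ rowT t G₀ i).card) := by
  classical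
  ext x
  rw [Finset.mem_image, mem_Tab56]
  constructor
  · rintro ⟨G, hG, rfl⟩
    rw [mem_cls] at hG
    have h := margins_eq ht hG.1 hG₀ hG.2
    exact ⟨h.2, h.1⟩
  · rintro ⟨hr, hc⟩
    have h := ofTable_mem ht hG₀ x hr hc
    exact ⟨ofTable t G₀ x, h.1, h.2⟩

/-- The same for helper78's `Tab c r` (columns first). -/
theorem image_rowT_cls' {t : Fin 3 → Fin n} (ht : Function.Injective t) {d : Fin n → ℕ}
    {G₀ : Finset (Edge n)} (hG₀ : G₀ ∈ realizations d) :
    (cls d (TT t) G₀).image (rowT t) =
      Crest.Agent.Helper78.S0453.Tab (fun w => (univ.filter fun i => w ∈ rowT t G₀ i).card)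
        (fun i => (rowT t G₀ i).card) := by
  classical
  ext x
  rw [Finset.mem_image, Crest.Agent.Helper78.S0453.mem_Tab]
  constructor
  · rintro ⟨G, hG, rfl⟩
    rw [mem_cls] at hG
    exact margins_eq ht hG.1 hG₀ hG.2
  · rintro ⟨hc, hr⟩
    have h := ofTable_mem ht hG₀ x hr hc
    exact ⟨ofTable t G₀ x, h.1, h.2⟩

end Crest.Agent.Helper59.SW
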